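import Vale.Agent.P224.R2.H797.D.Rows
import Vale.Agent.P224.R2.H797.LawE

/-!
Certificate D: the law is negative for lengths of the mean normal between `29/100` and `33/50`.
-/

namespace Vale.Agent.P224.R2.H797.D

open Vale.Agent.P224.UE Vale.Agent.P224.POS Vale.Agent.P224.PO Vale.Agent.P224.R2.H178
  Vale.Agent.P224.R2.H797

/-- the value of the rows -/
noncomputable def qv : PE := PE.add (PE.add (PE.c (-19147487769264)) (PE.mul (PE.c (14549855609600)) (PE.v 0)))
  (PE.mul (PE.c (666801145872)) (PE.v 1))

set_option maxRecDepth 100000 in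
lemma qv_chk : chk [] (PE.sub (lvU 3 rows) qv) = true := by decide +kernel

lemma hval_rows (ν ρ : ℝ) : hvalU 3 (rlH 17008070492160 rows) ν ρ
    = (-(398905995193 / 1417339207680)) + (11367074695 / 53150220288) * ν + (4630563513 / 472446402560) * ρ := by
  rw [hvalU_eq (by norm_num) qv_chk]
  unfold qv
  simp only [PE.ev_add, PE.ev_mul, PE.ev_c, PE.ev_v]
  have e0 : ([ν, ρ] : List ℝ).getD 0 0 = ν := rfl
  have e1 : ([ν, ρ] : List ℝ).getD 1 0 = ρ := rfl
  rw [e0, e1]
  push_cast
  ring

/-- **The law is negative.** -/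
theorem hneg {ν ρ : ℝ} (h1 : (29 / 100) ≤ ν) (h2 : ν ≤ (33 / 50)) (hr1 : ν ^ 2 ≤ ρ) (hr2 : ρ ≤ 1) :
    hvalU 3 (rlH 17008070492160 rows) ν ρ ≤ 0 ∧
      0 + ((17008070492160 / 17008070492160) + (0 / 17008070492160) + (-19333539465000 / 17008070492160) * ν + (8242034286896 / 17008070492160) * ν ^ 2 + ((-550229767304 / 17008070492160) + (-3353973512 / 17008070492160) * ν) * ρ + ((-146535906376 / 17008070492160) + (0 / 17008070492160)) * ν ^ 2
        + (0 / 17008070492160) * ((1 - ρ) / 4)) + 330797 / 100000 * hvalU 3 (rlH 17008070492160 rows) ν ρ < 0 := by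
  rw [hval_rows]
  have ha := sub_nonneg.2 h1
  have hb := sub_nonneg.2 h2
  have hab := mul_nonneg ha hb
  have haa := mul_nonneg hab ha
  have hbb := mul_nonneg hab hb
  constructor
  · have e1 : (-(398905995193 / 1417339207680)) + (11367074695 / 53150220288) * ν + (4630563513 / 472446402560) * ν ^ 2 < 0 := by
      nlinarith
    have e2 : (-(398905995193 / 1417339207680)) + (11367074695 / 53150220288) * ν + (4630563513 / 472446402560) * 1 < 0 := by
      linarith
    exact (aff_neg e1 e2 hr1 hr2).le
  · have e1 : ((9777014276141179 / 141733920768000000) + (-(456307374986117 / 1063004405760000)) * ν + (202387459513 / 425201762304) * ν ^ 2) + ((30244483088749 / 425201762304000000) + (-(419246689 / 2126008811520)) * ν) * ν ^ 2 < 0 := by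
      nlinarith
    have e2 : ((9777014276141179 / 141733920768000000) + (-(456307374986117 / 1063004405760000)) * ν + (202387459513 / 425201762304) * ν ^ 2) + ((30244483088749 / 425201762304000000) + (-(419246689 / 2126008811520)) * ν) * 1 < 0 := by
      nlinarith
    have e3 := aff_neg e1 e2 hr1 hr2
    refine lt_of_eq_of_lt ?_ e3
    ring

end Vale.Agent.P224.R2.H797.D
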